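import Vale.Agent.P232.Final
import Vale.Agent.P232.CertAll

open MeasureTheory Set

namespace Vale.Agent.Results.P232.A_full

open Vale.Agent.P232

theorem result :
    (∀ V : ℝ, 0 < V → V < 1 → profile V = ENNReal.ofReal (Jfun V)) ∧
    (∀ V : ℝ, 0 < V → V < 1 → ∀ E : Set T3, NullMeasurableSet E volume →
      volume E = ENNReal.ofReal V → perim E = profile V →
      ∃ C : Set T3, IsCanonical C ∧ (E =ᵐ[volume] C ∨ E =ᵐ[volume] (Cᶜ : Set T3))) :=
  main_of_numerics numerics

end Vale.Agent.Results.P232.A_full
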